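import Mathlib

/-! Expectation over a binomial random subset of a finite ground set. -/

open Finset

namespace Vale.Agent.P064

variable {X : Type*} [DecidableEq X]

/-- Expectation of `F W` where `W` keeps each element of `s` independently with probability `z`. -/
noncomputable def Ex (s : Finset X) (z : ℝ) (F : Finset X → ℝ) : ℝ :=
  ∑ W ∈ s.powerset, z ^ W.card * (1 - z) ^ (s.card - W.card) * F W

omit [DecidableEq X] in
lemma Ex_empty (z : ℝ) (F : Finset X → ℝ) : Ex ∅ z F = F ∅ := by
  simp [Ex]

lemma Ex_insert {s : Finset X} {x : X} (hx : x ∉ s) (z : ℝ) (F : Finset X → ℝ) :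
    Ex (insert x s) z F = (1 - z) * Ex s z F + z * Ex s z (fun W => F (insert x W)) := by
  unfold Ex
  rw [sum_powerset_insert hx, mul_sum, mul_sum]
  congr 1
  · refine sum_congr rfl fun W hW => ?_
    have h1 : W.card ≤ s.card := card_le_card (mem_powerset.1 hW)
    rw [card_insert_of_notMem hx, show s.card + 1 - W.card = (s.card - W.card) + 1 by omega,
      pow_succ]
    ring
  · refine sum_congr rfl fun W hW => ?_
    have hxW : x ∉ W := fun h => hx (mem_powerset.1 hW h)
    rw [card_insert_of_notMem hx, card_insert_of_notMem hxW,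
      show s.card + 1 - (W.card + 1) = s.card - W.card by omega, pow_succ]
    ring

omit [DecidableEq X] in
lemma Ex_mono {s : Finset X} {z : ℝ} (h0 : 0 ≤ z) (h1 : z ≤ 1) {F G : Finset X → ℝ}
    (h : ∀ W, W ⊆ s → F W ≤ G W) : Ex s z F ≤ Ex s z G := by
  unfold Ex
  refine sum_le_sum fun W hW => ?_
  have : 0 ≤ 1 - z := by linarith
  exact mul_le_mul_of_nonneg_left (h W (mem_powerset.1 hW)) (by positivity)

omit [DecidableEq X] in
lemma Ex_congr {s : Finset X} {z : ℝ} {F G : Finset X → ℝ}
    (h : ∀ W, W ⊆ s → F W = G W) : Ex s z F = Ex s z G := by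
  unfold Ex
  exact sum_congr rfl fun W hW => by rw [h W (mem_powerset.1 hW)]

lemma Ex_const (s : Finset X) (z c : ℝ) : Ex s z (fun _ => c) = c := by
  induction s using Finset.induction_on with
  | empty => simp [Ex]
  | insert x s hx ih => rw [Ex_insert hx, ih]; ring

omit [DecidableEq X] in
lemma Ex_add (s : Finset X) (z : ℝ) (F G : Finset X → ℝ) :
    Ex s z (fun W => F W + G W) = Ex s z F + Ex s z G := by
  unfold Ex
  rw [← sum_add_distrib]
  exact sum_congr rfl fun W _ => by ring

omit [DecidableEq X] in
lemma Ex_const_mul (s : Finset X) (z c : ℝ) (F : Finset X → ℝ) :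
    Ex s z (fun W => c * F W) = c * Ex s z F := by
  unfold Ex
  rw [mul_sum]
  exact sum_congr rfl fun W _ => by ring

omit [DecidableEq X] in
lemma Ex_sum {ι : Type*} (t : Finset ι) (s : Finset X) (z : ℝ) (F : ι → Finset X → ℝ) :
    Ex s z (fun W => ∑ i ∈ t, F i W) = ∑ i ∈ t, Ex s z (F i) := by
  unfold Ex
  rw [sum_comm]
  exact sum_congr rfl fun W _ => by rw [mul_sum]

lemma Ex_plant_one {s : Finset X} {x : X} (hx : x ∈ s) (z : ℝ) (F : Finset X → ℝ) :
    Ex s z (fun W => if x ∈ W then F W else 0) = z * Ex s z (fun W => F (insert x W)) := by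
  obtain ⟨t, hxt, rfl⟩ : ∃ t, x ∉ t ∧ s = insert x t :=
    ⟨s.erase x, notMem_erase x s, (insert_erase hx).symm⟩
  rw [Ex_insert hxt, Ex_insert hxt]
  have h1 : Ex t z (fun W => if x ∈ W then F W else 0) = 0 := by
    rw [Ex_congr (G := fun _ => 0), Ex_const]
    intro W hW
    rw [if_neg (fun h => hxt (hW h))]
  rw [h1]
  simp only [mem_insert, true_or, if_true, insert_idem]
  ring

lemma Ex_plant {s : Finset X} (z : ℝ) (D : Finset X) (hD : D ⊆ s) (F : Finset X → ℝ) :
    Ex s z (fun W => if D ⊆ W then F W else 0) = z ^ D.card * Ex s z (fun W => F (W ∪ D)) := by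
  induction D using Finset.induction_on generalizing F with
  | empty => simp
  | insert x D hx ih =>
    have hxs : x ∈ s := hD (mem_insert_self x D)
    have hDs : D ⊆ s := (subset_insert x D).trans hD
    have h1 : Ex s z (fun W => if insert x D ⊆ W then F W else 0)
        = Ex s z (fun W => if D ⊆ W then (if x ∈ W then F W else 0) else 0) := by
      refine Ex_congr fun W _ => ?_
      by_cases h2 : D ⊆ W <;> by_cases h3 : x ∈ W <;> simp [insert_subset_iff, h2, h3]
    rw [h1, ih hDs]
    have h2 : Ex s z (fun W => if x ∈ W ∪ D then F (W ∪ D) else 0)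
        = Ex s z (fun W => if x ∈ W then F (W ∪ D) else 0) := by
      refine Ex_congr fun W _ => ?_
      simp [hx]
    rw [h2, Ex_plant_one hxs, card_insert_of_notMem hx, pow_succ]
    have h3 : (fun W => F (insert x W ∪ D)) = fun W => F (W ∪ insert x D) := by
      funext W
      rw [insert_union, union_insert]
    rw [h3]
    ring

lemma Ex_union (s : Finset X) (p z : ℝ) (F : Finset X → ℝ) :
    Ex s p (fun W => Ex s z (fun W' => F (W ∪ W'))) = Ex s (p + z - p * z) F := by
  induction s using Finset.induction_on generalizing F with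
  | empty => simp [Ex_empty]
  | insert x s hx ih =>
    rw [Ex_insert hx, Ex_insert hx]
    simp only [Ex_insert hx, insert_union, union_insert, insert_idem]
    rw [Ex_add, Ex_add, Ex_const_mul, Ex_const_mul, Ex_const_mul,
      ih F, ih (fun W => F (insert x W))]
    ring

lemma Ex_zero (s : Finset X) (F : Finset X → ℝ) : Ex s 0 F = F ∅ := by
  induction s using Finset.induction_on generalizing F with
  | empty => simp [Ex_empty]
  | insert x s hx ih => rw [Ex_insert hx, ih]; ring

lemma Ex_one (s : Finset X) (F : Finset X → ℝ) : Ex s 1 F = F s := by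
  induction s using Finset.induction_on generalizing F with
  | empty => simp [Ex_empty]
  | insert x s hx ih => rw [Ex_insert hx, ih (fun W => F (insert x W))]; ring

end Vale.Agent.P064
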