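import Vale.Agent.P064.Tree

/-! Extraction of a conditionally spread tree from a sparse set under a group action. -/

open Finset
open scoped Pointwise

namespace Vale.Agent.P064

variable {X : Type*} [DecidableEq X] {Γ : Type*} [Group Γ] [Fintype Γ] [MulAction Γ X]

omit [Fintype Γ] in
lemma Good.smul {ι : Type*} [Fintype ι] {s : Finset X} {P : Finset X → Prop} {p : ℝ}
    (hs : ∀ (g : Γ) (A : Finset X), A ⊆ s → g • A ⊆ s)
    (hP : ∀ (g : Γ) (A : Finset X), P A → P (g • A)) (g : Γ) :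
    ∀ (d m : ℕ) (S : Finset X), Good ι s P p d m S → Good ι s P p d m (g • S)
  | 0, _, S, h => hP g S h
  | d + 1, m, S, ⟨ν, lab, h0, h1, h2, h3⟩ => by
    refine ⟨ν, fun i => g • lab i, h0, h1, fun i hi => ⟨hs g _ (h2 i hi).1, ?_, ?_⟩, ?_⟩
    · rw [card_smul_finset]; exact (h2 i hi).2.1
    · rw [← smul_finset_union]
      exact Good.smul hs hP g d m _ (h2 i hi).2.2
    · intro T hT
      have h4 := h3 (g⁻¹ • T) hT.smul_finset
      rw [card_smul_finset] at h4
      refine le_trans (le_of_eq ?_) h4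
      refine sum_congr ?_ fun _ _ => rfl
      ext i
      simp only [mem_filter, mem_univ, true_and]
      exact subset_smul_finset_iff

lemma fiber_mul_orbit_le (T' T : Finset X) :
    (univ.filter fun g : Γ => g • T' = T).card * (univ.image fun g : Γ => g • T').card
      ≤ Fintype.card Γ := by
  classical
  rcases (univ.filter fun g : Γ => g • T' = T).eq_empty_or_nonempty with h | ⟨g₀, hg₀⟩
  · simp [h]
  have hg₀' : g₀ • T' = T := (mem_filter.1 hg₀).2
  rw [← card_univ, card_eq_sum_card_image (fun g : Γ => g • T') univ, mul_comm, ← smul_eq_mul,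
    ← sum_const]
  refine sum_le_sum fun B hB => ?_
  obtain ⟨g₁, -, rfl⟩ := mem_image.1 hB
  refine card_le_card_of_injOn (fun g => g₁ * g₀⁻¹ * g) ?_ ?_
  · intro g hg
    have hg' : g • T' = T := by simpa using hg
    simp only [coe_filter, mem_univ, true_and, Set.mem_ofPred_eq]
    rw [mul_smul, hg', ← hg₀', mul_smul, inv_smul_smul]
  · intro a _ b _ hab
    exact mul_left_cancel hab

lemma count_le (H U T : Finset X) (hU : U ⊆ H) (q : ℝ) (hq : 0 ≤ q)
    (hsp : ∀ I, I ⊆ H → 1 / 2 ≤ ((univ.image fun g : Γ => g • I).card : ℝ) * q ^ I.card) :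
    ((univ.filter fun g : Γ => T ⊆ g • U).card : ℝ)
      ≤ 2 ^ U.card * (2 * q ^ T.card * Fintype.card Γ) := by
  classical
  have h1 : (univ.filter fun g : Γ => T ⊆ g • U) ⊆
      U.powerset.biUnion fun T' => univ.filter fun g : Γ => g • T' = T := by
    intro g hg
    have hg' : T ⊆ g • U := (mem_filter.1 hg).2
    rw [mem_biUnion]
    exact ⟨g⁻¹ • T, mem_powerset.2 (subset_smul_finset_iff.1 hg'), by simp⟩
  have h2 := (card_le_card h1).trans card_biUnion_le
  have h3 : ∀ T' ∈ U.powerset, ((univ.filter fun g : Γ => g • T' = T).card : ℝ)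
      ≤ 2 * q ^ T.card * Fintype.card Γ := by
    intro T' hT'
    rcases (univ.filter fun g : Γ => g • T' = T).eq_empty_or_nonempty with h | ⟨g₀, hg₀⟩
    · rw [h, card_empty, Nat.cast_zero]; positivity
    have hg₀' : g₀ • T' = T := (mem_filter.1 hg₀).2
    have hc : T'.card = T.card := by rw [← hg₀', card_smul_finset]
    have h4 := hsp T' ((mem_powerset.1 hT').trans hU)
    rw [hc] at h4
    have h5 : ((univ.filter fun g : Γ => g • T' = T).card : ℝ) *
        ((univ.image fun g : Γ => g • T').card : ℝ) ≤ Fintype.card Γ := by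
      exact_mod_cast fiber_mul_orbit_le (Γ := Γ) T' T
    have h6 : (0 : ℝ) ≤ ((univ.filter fun g : Γ => g • T' = T).card : ℝ) := by positivity
    have h7 : 0 ≤ q ^ T.card := by positivity
    nlinarith [mul_le_mul_of_nonneg_left h4 h6, mul_le_mul_of_nonneg_right h5 h7]
  calc ((univ.filter fun g : Γ => T ⊆ g • U).card : ℝ)
      ≤ ∑ T' ∈ U.powerset, ((univ.filter fun g : Γ => g • T' = T).card : ℝ) := by
        exact_mod_cast h2
    _ ≤ ∑ T' ∈ U.powerset, 2 * q ^ T.card * Fintype.card Γ := sum_le_sum h3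
    _ = _ := by rw [sum_const, card_powerset, nsmul_eq_mul]; push_cast; ring

lemma extract_step [Fintype X] {s : Finset X} {P : Finset X → Prop}
    (hs : ∀ (g : Γ) (A : Finset X), A ⊆ s → g • A ⊆ s)
    (hP : ∀ (g : Γ) (A : Finset X), P A → P (g • A))
    (H : Finset X) (hH : H ⊆ s) (q : ℝ) (hq : 0 < q)
    (hsp : ∀ I, I ⊆ H → 1 / 2 ≤ ((univ.image fun g : Γ => g • I).card : ℝ) * q ^ I.card)
    (d m : ℕ) (U : Finset X) (hU : U ⊆ H) (hc : U.card ≤ m / 16 ^ d)
    (hG : Good Γ s P (2 ^ 32 * q) d m U) :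
    ∃ U' : Finset X, U' ⊆ H ∧ U'.card ≤ m / 16 ^ (d + 1) ∧
      Good Γ s P (2 ^ 32 * q) (d + 1) m U' := by
  classical
  set p : ℝ := 2 ^ 32 * q with hp
  have hp0 : 0 < p := by positivity
  set cnt : Finset X → ℝ := fun T => ((univ.filter fun g : Γ => T ⊆ g • U).card : ℝ) with hcnt
  obtain ⟨T, -, hT⟩ := exists_max_image (univ : Finset (Finset X))
    (fun T => cnt T / p ^ T.card) univ_nonempty
  have hΓ : (0 : ℝ) < Fintype.card Γ := by exact_mod_cast Fintype.card_pos
  have hT0 : (Fintype.card Γ : ℝ) * p ^ T.card ≤ cnt T := by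
    have := hT ∅ (mem_univ _)
    simp only [hcnt, empty_subset, filter_true, card_univ, card_empty, pow_zero, div_one] at this
    rwa [le_div_iff₀ (by positivity)] at this
  have hcpos : 0 < cnt T := lt_of_lt_of_le (by positivity) hT0
  have hne : (univ.filter fun g : Γ => T ⊆ g • U).Nonempty := by
    rw [← card_pos]
    simp only [hcnt] at hcpos
    exact_mod_cast hcpos
  obtain ⟨g₀, hg₀⟩ := hne
  have hg₀' : T ⊆ g₀ • U := (mem_filter.1 hg₀).2
  have hGT : Good Γ s P p (d + 1) m T := by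
    refine ⟨fun g => if T ⊆ g • U then (cnt T)⁻¹ else 0, fun g => g • U \ T, fun g => ?_, ?_,
      fun g hg => ?_, fun T' hT' => ?_⟩
    · dsimp only
      split_ifs <;> positivity
    · rw [← sum_filter, sum_const, nsmul_eq_mul]
      exact mul_inv_cancel₀ hcpos.ne'
    · have hg' : T ⊆ g • U := by
        by_contra h
        simp [h] at hg
      refine ⟨sdiff_subset.trans (hs g U (hU.trans hH)), ?_, ?_⟩
      · exact (card_le_card sdiff_subset).trans (by rw [card_smul_finset]; exact hc)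
      · rw [union_sdiff_of_subset hg']
        exact Good.smul hs hP g d m U hG
    · have hsp' : p ^ T'.card ≤ (sp p (m / 16 ^ d)) ^ T'.card := by
        refine pow_le_pow_left₀ hp0.le ?_ _
        unfold sp
        have : (0 : ℝ) ≤ 1 / ((m / 16 ^ d : ℕ) : ℝ) := by positivity
        nlinarith
      refine le_trans ?_ hsp'
      by_cases hd : Disjoint T T'
      · have h1 : ∑ g : Γ with T' ⊆ g • U \ T, (if T ⊆ g • U then (cnt T)⁻¹ else 0)
            ≤ cnt (T ∪ T') * (cnt T)⁻¹ := by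
          rw [← sum_filter, sum_const, nsmul_eq_mul]
          refine mul_le_mul_of_nonneg_right ?_ (by positivity)
          simp only [hcnt]
          refine Nat.cast_le.2 (card_le_card ?_)
          intro g hg
          simp only [mem_filter, mem_univ, true_and] at hg ⊢
          exact union_subset hg.2 (hg.1.trans sdiff_subset)
        refine h1.trans ?_
        have h2 := hT (T ∪ T') (mem_univ _)
        rw [card_union_of_disjoint hd, pow_add, div_le_div_iff₀ (by positivity) (by positivity)]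
          at h2
        rw [← div_eq_mul_inv, div_le_iff₀ hcpos]
        have h3 : 0 < p ^ T.card := by positivity
        nlinarith
      · have h1 : ∑ g : Γ with T' ⊆ g • U \ T, (if T ⊆ g • U then (cnt T)⁻¹ else 0) = 0 := by
          refine sum_eq_zero fun g hg => ?_
          exfalso
          exact hd (disjoint_of_subset_right (mem_filter.1 hg).2 disjoint_sdiff)
        rw [h1]; positivity
  refine ⟨g₀⁻¹ • T, (subset_smul_finset_iff.1 hg₀').trans hU, ?_, Good.smul hs hP _ _ _ _ hGT⟩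
  rw [card_smul_finset]
  have h1 := hT0.trans (count_le (Γ := Γ) H U T hU q hq.le hsp)
  have h2 : (2 : ℝ) ^ (32 * T.card) ≤ 2 ^ (U.card + 1) := by
    rw [hp, mul_pow, ← pow_mul] at h1
    have h3 : 0 < q ^ T.card * Fintype.card Γ := by positivity
    rw [pow_succ]
    nlinarith
  have h3 : 32 * T.card ≤ U.card + 1 := (pow_le_pow_iff_right₀ (by norm_num)).1 h2
  rw [pow_succ, ← Nat.div_div_eq_div_mul]
  omega

open Classical in
theorem abstract_main [Fintype X] {s : Finset X}
    (hs : ∀ (g : Γ) (A : Finset X), A ⊆ s → g • A ⊆ s)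
    (H : Finset X) (hH : H ⊆ s) (q : ℝ) (hq : 0 < q) (hq1 : 2 ^ 65 * q ≤ 1)
    (hsp : ∀ I, I ⊆ H → 1 / 2 ≤ ((univ.image fun g : Γ => g • I).card : ℝ) * q ^ I.card)
    (k : ℕ) (hk : H.card < 2 ^ k) :
    ∃ p : ℝ, 0 ≤ p ∧ p ≤ 1 ∧ p ≤ (2 * k + 1) * (2 ^ 65 * q) ∧
      1 / 2 ≤ Ex s p (fun W => if ∃ g : Γ, g • H ⊆ W then 1 else 0) := by
  set P : Finset X → Prop := fun W => ∃ g : Γ, g • H ⊆ W with hPdef
  have hPm : ∀ S S', S ⊆ S' → P S → P S' := fun S S' h ⟨g, hg⟩ => ⟨g, hg.trans h⟩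
  have hPs : ∀ (g : Γ) (A : Finset X), P A → P (g • A) := fun g A ⟨g', hg'⟩ =>
    ⟨g * g', by rw [mul_smul]; exact smul_finset_subset_smul_finset hg'⟩
  have hall : ∀ d, ∃ U : Finset X, U ⊆ H ∧ U.card ≤ H.card / 16 ^ d ∧
      Good Γ s P (2 ^ 32 * q) d H.card U := by
    intro d
    induction d with
    | zero => exact ⟨H, Subset.rfl, by simp, ⟨1, by simp⟩⟩
    | succ d ih =>
      obtain ⟨U, h1, h2, h3⟩ := ih
      exact extract_step hs hPs H hH q hq hsp d H.card U h1 h2 h3
  obtain ⟨U, -, h2, h3⟩ := hall H.card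
  have h4 : H.card / 16 ^ H.card = 0 :=
    Nat.div_eq_of_lt (Nat.lt_pow_self (by norm_num))
  rw [h4, Nat.le_zero, card_eq_zero] at h2
  subst h2
  have hz0 : (0 : ℝ) < 2 ^ 65 * q := by positivity
  have h5 := iterate (ι := Γ) (s := s) hPm (by positivity : (0 : ℝ) ≤ 2 ^ 32 * q) hz0 hq1
    (le_of_eq (by ring)) H.card (2 * k + 1) k H.card ∅ hk h3
  obtain ⟨b0, b1, b2⟩ := pr_bounds hz0.le hq1 (2 * k + 1)
  refine ⟨pr (2 ^ 65 * q) (2 * k + 1), b0, b1, by exact_mod_cast b2, ?_⟩
  have h6 : (4 : ℝ) ^ k / 2 ^ (2 * k + 1) = 1 / 2 := by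
    rw [pow_succ, pow_mul]
    field_simp
    norm_num
  rw [h6] at h5
  have h7 : Ex s (pr (2 ^ 65 * q) (2 * k + 1))
      (fun W => 1 + (-1) * (if ∃ g : Γ, g • H ⊆ W then 1 else 0)) ≤ 1 / 2 := by
    refine le_trans (le_of_eq (Ex_congr fun W _ => ?_)) h5
    rw [empty_union]
    by_cases h : ∃ g : Γ, g • H ⊆ W
    · rw [if_pos h, if_pos (show P W from h)]; norm_num
    · rw [if_neg h, if_neg (show ¬ P W from h)]; norm_num
  rw [Ex_add, Ex_const, Ex_const_mul] at h7
  linarith

end Vale.Agent.P064
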