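import Vale.Agent.P064.Extract
import Vale.Agent.P064.Defs

/-! Translation to binomial random graphs. -/

open Finset MeasureTheory SimpleGraph
open scoped Pointwise

namespace Vale.Agent.P064

/-- All non-loop pairs. -/
def allE (n : ℕ) : Finset (Sym2 (Fin n)) := univ.filter fun e => ¬ e.IsDiag

lemma mem_allE {n : ℕ} {e : Sym2 (Fin n)} : e ∈ allE n ↔ ¬ e.IsDiag := by simp [allE]

lemma card_allE (n : ℕ) : (allE n).card = n.choose 2 := by
  classical
  have h := SimpleGraph.card_edgeFinset_top_eq_card_choose_two (V := Fin n)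
  rw [Fintype.card_fin] at h
  rw [← h]
  congr 1
  ext e
  simp [mem_allE]

lemma edgeSet_from {n : ℕ} {W : Finset (Sym2 (Fin n))} (hW : W ⊆ allE n) :
    (fromEdgeSet (W : Set (Sym2 (Fin n)))).edgeSet = W := by
  rw [edgeSet_fromEdgeSet]
  ext e
  simp only [Set.mem_diff, mem_coe, Sym2.mem_diagSet, and_iff_left_iff_imp]
  exact fun h => mem_allE.1 (hW h)

lemma integral_eq_Ex (n : ℕ) (p : unitInterval) (f : SimpleGraph (Fin n) → ℝ) :
    ∫ G, f G ∂(binomialRandom (Fin n) p)
      = Ex (allE n) p (fun W => f (fromEdgeSet (W : Set (Sym2 (Fin n))))) := by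
  classical
  haveI : MeasurableSingletonClass (SimpleGraph (Fin n)) := ⟨fun G => by
    have : ({G} : Set (SimpleGraph (Fin n))) = edgeSet ⁻¹' {G.edgeSet} := by
      ext G'
      simp [edgeSet_inj]
    rw [this]
    exact measurable_edgeSet (measurableSet_singleton _)⟩
  rw [integral_fintype Integrable.of_finite]
  unfold Ex
  symm
  refine sum_bij' (fun W _ => fromEdgeSet (W : Set (Sym2 (Fin n))))
    (fun G _ => univ.filter fun e => e ∈ G.edgeSet) (fun _ _ => mem_univ _) ?_ ?_ ?_ ?_
  · intro G _
    rw [mem_powerset]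
    intro e he
    exact mem_allE.2 (G.not_isDiag_of_mem_edgeSet (mem_filter.1 he).2)
  · intro W hW
    ext e
    simp [edgeSet_from (mem_powerset.1 hW)]
  · intro G _
    simp
  · intro W hW
    rw [Measure.real, binomialRandom_singleton, edgeSet_from (mem_powerset.1 hW),
      Set.ncard_coe_finset, card_allE]
    simp [unitInterval.coe_symm_eq]

open Classical in
lemma real_eq_Ex (n : ℕ) (p : unitInterval) (S : Set (SimpleGraph (Fin n))) :
    (binomialRandom (Fin n) p).real S
      = Ex (allE n) p (fun W => if fromEdgeSet (W : Set (Sym2 (Fin n))) ∈ S then 1 else 0) := by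
  haveI : MeasurableSingletonClass (SimpleGraph (Fin n)) := ⟨fun G => by
    have : ({G} : Set (SimpleGraph (Fin n))) = edgeSet ⁻¹' {G.edgeSet} := by
      ext G'
      simp [edgeSet_inj]
    rw [this]
    exact measurable_edgeSet (measurableSet_singleton _)⟩
  rw [← integral_indicator_one (Set.toFinite S).measurableSet, integral_eq_Ex]
  refine Ex_congr fun W _ => ?_
  simp [Set.indicator_apply]

/-- Permutations of the vertices act on unordered pairs. -/
@[reducible] def act (n : ℕ) : MulAction (Equiv.Perm (Fin n)) (Sym2 (Fin n)) where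
  smul σ e := Sym2.map σ e
  one_smul e := by
    change Sym2.map (1 : Equiv.Perm (Fin n)) e = e
    simp
  mul_smul σ τ e := by
    change Sym2.map (σ * τ : Equiv.Perm (Fin n)) e = Sym2.map σ (Sym2.map τ e)
    rw [Sym2.map_map]
    rfl

end Vale.Agent.P064
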