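import Vale.Agent.P064.Graph

/-! The second Kahn-Kalai bound. -/

open Finset MeasureTheory SimpleGraph
open scoped Pointwise

namespace Vale.Agent.P064

variable {n : ℕ} {V : Type} [Fintype V]

open Classical in
/-- The edge set of the image of `H` under the embedding `f`. -/
noncomputable def imE (H : SimpleGraph V) (f : V ↪ Fin n) : Finset (Sym2 (Fin n)) :=
  (univ.filter fun e : Sym2 V => e ∈ H.edgeSet).image (Sym2.map f)

lemma mem_imE {H : SimpleGraph V} {f : V ↪ Fin n} {e : Sym2 (Fin n)} :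
    e ∈ imE H f ↔ ∃ u v, H.Adj u v ∧ e = s(f u, f v) := by
  classical
  unfold imE
  rw [mem_image]
  constructor
  · rintro ⟨e', he', rfl⟩
    induction e' using Sym2.ind with
    | _ u v => exact ⟨u, v, by simpa using he', rfl⟩
  · rintro ⟨u, v, h, rfl⟩
    exact ⟨s(u, v), by simpa using h, rfl⟩

lemma card_imE (H : SimpleGraph V) (f : V ↪ Fin n) : (imE H f).card = H.edgeSet.ncard := by
  classical
  unfold imE
  rw [card_image_of_injective _ (Sym2.map.injective f.injective), ← Set.ncard_coe_finset]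
  congr 1
  ext e
  simp

lemma imE_subset (H : SimpleGraph V) (f : V ↪ Fin n) : imE H f ⊆ allE n := by
  intro e he
  obtain ⟨u, v, h, rfl⟩ := mem_imE.1 he
  rw [mem_allE, Sym2.mk_isDiag_iff]
  exact fun h' => h.ne (f.injective h')

lemma contained_of_image (H : SimpleGraph V) (f : V ↪ Fin n) (σ : Equiv.Perm (Fin n))
    (W : Finset (Sym2 (Fin n))) (h : (imE H f).image (Sym2.map σ) ⊆ W) :
    0 < (fromEdgeSet (W : Set (Sym2 (Fin n)))).copyCount H := by
  rw [copyCount_pos]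
  refine ⟨⟨⟨fun v => σ (f v), fun {u v} huv => ?_⟩, σ.injective.comp f.injective⟩⟩
  rw [fromEdgeSet_adj]
  refine ⟨?_, fun h' => huv.ne (f.injective (σ.injective h'))⟩
  exact h (mem_image.2 ⟨s(f u, f v), mem_imE.2 ⟨u, v, huv, rfl⟩, rfl⟩)

/-- The subgraph of `H` without isolated vertices whose edges are those mapped into `I`. -/
def subI (H : SimpleGraph V) (f : V ↪ Fin n) (I : Finset (Sym2 (Fin n))) : H.Subgraph where
  verts := {u | ∃ v, H.Adj u v ∧ s(f u, f v) ∈ I}
  Adj u v := H.Adj u v ∧ s(f u, f v) ∈ I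
  adj_sub h := h.1
  edge_vert {_ v} h := ⟨v, h⟩
  symm := ⟨fun u v h => ⟨h.1.symm, by rw [Sym2.eq_swap]; exact h.2⟩⟩

lemma copyCount_le (H : SimpleGraph V) (f : V ↪ Fin n) (I : Finset (Sym2 (Fin n)))
    (hI : I ⊆ imE H f) (W : Finset (Sym2 (Fin n))) :
    (fromEdgeSet (W : Set (Sym2 (Fin n)))).copyCount (subI H f I).coe
      ≤ ((univ.image fun σ : Equiv.Perm (Fin n) => I.image (Sym2.map σ)).filter
          fun J => J ⊆ W).card := by
  classical
  set G := fromEdgeSet (W : Set (Sym2 (Fin n))) with hG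
  unfold copyCount
  refine card_le_card_of_injOn (fun G' => univ.filter fun e => e ∈ G'.edgeSet) ?_ ?_
  · intro G' hG'
    obtain ⟨φ⟩ : Nonempty ((subI H f I).coe ≃g G'.coe) := by simpa using hG'
    obtain ⟨σ, hσ⟩ := Equiv.Perm.exists_extending_pair
      (fun u : (subI H f I).verts => f u.1) (fun u : (subI H f I).verts => (φ u).1)
      (f.injective.comp Subtype.val_injective) (Subtype.val_injective.comp φ.injective)
    simp only [coe_filter, mem_image, mem_univ, true_and, Set.mem_ofPred_eq]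
    refine ⟨⟨σ, ?_⟩, ?_⟩
    · ext e
      simp only [mem_image, mem_filter, mem_univ, true_and]
      constructor
      · rintro ⟨e', he', rfl⟩
        obtain ⟨u, v, huv, rfl⟩ := mem_imE.1 (hI he')
        have hu : u ∈ (subI H f I).verts := ⟨v, huv, he'⟩
        have hv : v ∈ (subI H f I).verts := ⟨u, huv.symm, by rw [Sym2.eq_swap]; exact he'⟩
        have h1 : (subI H f I).coe.Adj ⟨u, hu⟩ ⟨v, hv⟩ := ⟨huv, he'⟩
        have h2 := φ.map_rel_iff.2 h1
        have h3 := hσ ⟨u, hu⟩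
        have h4 := hσ ⟨v, hv⟩
        simp only at h3 h4
        rw [Sym2.map_mk, h3, h4]
        exact h2
      · intro he
        induction e using Sym2.ind with
        | _ a b =>
          have hab : G'.Adj a b := he
          have h1 : G'.coe.Adj ⟨a, G'.edge_vert hab⟩ ⟨b, G'.edge_vert hab.symm⟩ := hab
          have h2 := φ.symm.map_rel_iff.2 h1
          refine ⟨_, h2.2, ?_⟩
          have h3 := hσ (φ.symm ⟨a, G'.edge_vert hab⟩)
          have h4 := hσ (φ.symm ⟨b, G'.edge_vert hab.symm⟩)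
          simp only [RelIso.apply_symm_apply] at h3 h4
          rw [Sym2.map_mk, h3, h4]
    · intro e he
      have h1 : e ∈ G.edgeSet := G'.edgeSet_subset (mem_filter.1 he).2
      rw [hG, edgeSet_fromEdgeSet] at h1
      exact h1.1
  · have key : ∀ G' : G.Subgraph, Nonempty ((subI H f I).coe ≃g G'.coe) →
        ∀ a, a ∈ G'.verts → ∃ b, G'.Adj a b := by
      rintro G' ⟨φ⟩ a ha
      obtain ⟨v, hv⟩ := (φ.symm ⟨a, ha⟩).2
      have hv' : v ∈ (subI H f I).verts := ⟨_, hv.1.symm, by rw [Sym2.eq_swap]; exact hv.2⟩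
      have h1 : (subI H f I).coe.Adj (φ.symm ⟨a, ha⟩) ⟨v, hv'⟩ := hv
      have h2 := φ.map_rel_iff.2 h1
      rw [RelIso.apply_symm_apply] at h2
      exact ⟨_, h2⟩
    intro G₁ h₁ G₂ h₂ heq
    have h₁' : Nonempty ((subI H f I).coe ≃g G₁.coe) := by simpa using h₁
    have h₂' : Nonempty ((subI H f I).coe ≃g G₂.coe) := by simpa using h₂
    have hadj : ∀ a b, G₁.Adj a b ↔ G₂.Adj a b := by
      intro a b
      have := congrArg (fun t => s(a, b) ∈ t) heq
      simpa using this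
    refine Subgraph.ext ?_ ?_
    · ext a
      constructor
      · intro ha
        obtain ⟨b, hb⟩ := key G₁ h₁' a ha
        exact G₂.edge_vert ((hadj a b).1 hb)
      · intro ha
        obtain ⟨b, hb⟩ := key G₂ h₂' a ha
        exact G₁.edge_vert ((hadj a b).2 hb)
    · ext a b
      exact hadj a b

lemma image_subset_allE (σ : Equiv.Perm (Fin n)) (A : Finset (Sym2 (Fin n))) (hA : A ⊆ allE n) :
    A.image (Sym2.map σ) ⊆ allE n := by
  intro e he
  obtain ⟨e', he', rfl⟩ := mem_image.1 he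
  have := mem_allE.1 (hA he')
  rw [mem_allE]
  induction e' using Sym2.ind with
  | _ a b =>
    rw [Sym2.map_mk, Sym2.mk_isDiag_iff]
    rw [Sym2.mk_isDiag_iff] at this
    exact fun h => this (σ.injective h)

lemma sparse_of (H : SimpleGraph V) (f : V ↪ Fin n) (q : unitInterval)
    (h : ∀ F : H.Subgraph, 1 / 2 ≤ ∫ G, (G.copyCount F.coe : ℝ) ∂(binomialRandom (Fin n) q))
    (I : Finset (Sym2 (Fin n))) (hI : I ⊆ imE H f) :
    1 / 2 ≤ ((univ.image fun σ : Equiv.Perm (Fin n) => I.image (Sym2.map σ)).card : ℝ)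
      * (q : ℝ) ^ I.card := by
  classical
  refine (h (subI H f I)).trans ?_
  rw [integral_eq_Ex]
  set O := univ.image fun σ : Equiv.Perm (Fin n) => I.image (Sym2.map σ) with hO
  refine (Ex_mono q.2.1 q.2.2 (G := fun W => ∑ J ∈ O, if J ⊆ W then 1 else 0)
    fun W _ => ?_).trans ?_
  · rw [← sum_filter, sum_const, nsmul_eq_mul, mul_one]
    exact_mod_cast copyCount_le H f I hI W
  · rw [Ex_sum, ← nsmul_eq_mul, ← sum_const]
    refine sum_le_sum fun J hJ => le_of_eq ?_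
    obtain ⟨σ, -, rfl⟩ := mem_image.1 hJ
    rw [Ex_plant _ _ (image_subset_allE σ I (hI.trans (imE_subset H f))) (fun _ => 1), Ex_const,
      mul_one, card_image_of_injective _ (Sym2.map.injective σ.injective)]

lemma from_allE (n : ℕ) : fromEdgeSet (allE n : Set (Sym2 (Fin n))) = ⊤ := by
  ext a b
  simp [fromEdgeSet_adj, mem_allE]

lemma pc_le_of (H : SimpleGraph V) (p : ℝ) (hp : p ∈ unitInterval)
    (h : 1 / 2 ≤ (binomialRandom (Fin n) ⟨p, hp⟩).real {G | 0 < G.copyCount H}) :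
    pc n H ≤ p :=
  csInf_le ⟨0, fun _ ⟨hx, _⟩ => hx.1⟩ ⟨hp, h⟩

lemma pc_le_one (H : SimpleGraph V) (f : V ↪ Fin n) : pc n H ≤ 1 := by
  classical
  refine pc_le_of H 1 ⟨zero_le_one, le_rfl⟩ ?_
  rw [real_eq_Ex]
  change _ ≤ Ex (allE n) 1 _
  rw [Ex_one, if_pos]
  · norm_num
  · exact contained_of_image H f 1 _ (image_subset_allE 1 _ (imE_subset H f))

lemma pc_le_mul (H : SimpleGraph V) (f : V ↪ Fin n) (hH : 1 ≤ H.edgeSet.ncard) (k : ℕ)
    (hk : H.edgeSet.ncard < 2 ^ k) (q : ℝ) (hq : q ∈ unitInterval)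
    (h : ∀ F : H.Subgraph,
      1 / 2 ≤ ∫ G, (G.copyCount F.coe : ℝ) ∂(binomialRandom (Fin n) ⟨q, hq⟩)) :
    pc n H ≤ (2 * k + 1) * (2 ^ 65 * q) := by
  classical
  have hsp := sparse_of H f ⟨q, hq⟩ h
  have hq0 : 0 < q := by
    rcases hq.1.eq_or_lt with h0 | h0
    · exfalso
      have h1 := hsp _ Subset.rfl
      have h2 : (imE H f).card ≠ 0 := by rw [card_imE]; omega
      simp only [← h0, zero_pow h2, mul_zero] at h1
      norm_num at h1
    · exact h0
  by_cases hq1 : 2 ^ 65 * q ≤ 1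
  · letI := act n
    obtain ⟨p, p0, p1, p2, p3⟩ := abstract_main (Γ := Equiv.Perm (Fin n)) (s := allE n)
      (fun σ A hA => image_subset_allE σ A hA) (imE H f) (imE_subset H f) q hq0 hq1 hsp k
      (by rw [card_imE]; exact hk)
    refine le_trans (pc_le_of H p ⟨p0, p1⟩ ?_) p2
    rw [real_eq_Ex]
    refine p3.trans (Ex_mono p0 p1 fun W _ => ?_)
    split_ifs with h1 h2
    · exact le_rfl
    · obtain ⟨σ, hσ⟩ := h1
      exact absurd (contained_of_image H f σ W hσ) h2
    · norm_num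
    · exact le_rfl
  · have h1 := pc_le_one H f
    have h2 : (0 : ℝ) ≤ k := by positivity
    nlinarith

lemma pc_le_pE (H : SimpleGraph V) (hV : Fintype.card V ≤ n) (hH : 1 ≤ H.edgeSet.ncard) (k : ℕ)
    (hk : H.edgeSet.ncard < 2 ^ k) :
    0 ≤ pE n H ∧ pc n H ≤ (2 * k + 1) * 2 ^ 65 * pE n H := by
  classical
  obtain ⟨f⟩ : Nonempty (V ↪ Fin n) :=
    Function.Embedding.nonempty_of_card_le (by simpa using hV)
  have hne : {p : ℝ | ∃ hp : p ∈ unitInterval, ∀ F : H.Subgraph,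
      1 / 2 ≤ ∫ G, (G.copyCount F.coe : ℝ) ∂(binomialRandom (Fin n) ⟨p, hp⟩)}.Nonempty := by
    refine ⟨1, ⟨zero_le_one, le_rfl⟩, fun F => ?_⟩
    rw [integral_eq_Ex]
    change _ ≤ Ex (allE n) 1 _
    rw [Ex_one, from_allE]
    have : 0 < (⊤ : SimpleGraph (Fin n)).copyCount F.coe := by
      rw [copyCount_pos]
      exact ⟨⟨⟨fun v => f v.1, fun {u v} huv h' =>
        huv.ne (Subtype.ext (f.injective h'))⟩, f.injective.comp Subtype.val_injective⟩⟩
    have h1 : (1 : ℝ) ≤ (⊤ : SimpleGraph (Fin n)).copyCount F.coe := by exact_mod_cast this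
    linarith
  refine ⟨le_csInf hne fun _ ⟨hx, _⟩ => hx.1, ?_⟩
  have hc : (0 : ℝ) < (2 * k + 1) * 2 ^ 65 := by positivity
  rw [mul_comm, ← div_le_iff₀ hc]
  refine le_csInf hne fun q ⟨hq, h⟩ => ?_
  rw [div_le_iff₀ hc]
  have := pc_le_mul H f hH k hk q hq h
  linarith

lemma pc_le_logb (H : SimpleGraph V) (hV : Fintype.card V ≤ n) (hH : 1 ≤ H.edgeSet.ncard) :
    pc n H ≤ 2 ^ 67 * pE n H * (1 + Real.logb 2 H.edgeSet.ncard) := by
  set h := H.edgeSet.ncard with hh
  obtain ⟨h0, h1⟩ := pc_le_pE H hV hH (Nat.log 2 h + 1) (Nat.lt_pow_succ_log_self (by norm_num) h)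
  have h2 : (Nat.log 2 h : ℝ) ≤ Real.logb 2 h := by
    have := Real.natLog_le_logb h 2
    exact_mod_cast this
  have h3 : (0 : ℝ) ≤ Nat.log 2 h := by positivity
  push_cast at h1
  have h4 : (2 * ((Nat.log 2 h : ℝ) + 1) + 1) * 2 ^ 65 ≤ 2 ^ 67 * (1 + Real.logb 2 h) := by
    nlinarith
  nlinarith [mul_le_mul_of_nonneg_right h4 h0]

lemma pc_le_log (hn : 2 ≤ n) (H : SimpleGraph V) (hV : Fintype.card V ≤ n)
    (hH : 1 ≤ H.edgeSet.ncard) : pc n H ≤ 2 ^ 70 * pE n H * Real.log n := by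
  classical
  have h0 := (pc_le_pE H hV hH _ (Nat.lt_pow_succ_log_self (by norm_num) _)).1
  refine (pc_le_logb H hV hH).trans ?_
  obtain ⟨f⟩ : Nonempty (V ↪ Fin n) :=
    Function.Embedding.nonempty_of_card_le (by simpa using hV)
  have h1 : H.edgeSet.ncard ≤ n ^ 2 := by
    rw [← card_imE H f]
    refine (card_le_card (imE_subset H f)).trans ?_
    rw [card_allE]
    exact Nat.choose_le_pow n 2
  have hnR : (2 : ℝ) ≤ n := by exact_mod_cast hn
  have hl2 : 0.69 < Real.log 2 := by linarith [Real.log_two_gt_d9]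
  have h2 : Real.log 2 ≤ Real.log n := Real.log_le_log (by norm_num) hnR
  have h3 : Real.log H.edgeSet.ncard ≤ 2 * Real.log n := by
    have h4 : (0 : ℝ) < H.edgeSet.ncard := by exact_mod_cast hH
    have h5 : (H.edgeSet.ncard : ℝ) ≤ (n : ℝ) ^ 2 := by exact_mod_cast h1
    have := Real.log_le_log h4 h5
    rwa [Real.log_pow, Nat.cast_ofNat] at this
  have h6 : Real.logb 2 H.edgeSet.ncard ≤ 3 * Real.log n := by
    rw [Real.logb, div_le_iff₀ (by linarith)]
    nlinarith
  have h7 : 1 + Real.logb 2 H.edgeSet.ncard ≤ 8 * Real.log n := by linarith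
  have h8 := mul_le_mul_of_nonneg_left h7 (by positivity : (0 : ℝ) ≤ 2 ^ 67 * pE n H)
  nlinarith

end Vale.Agent.P064
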