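import Vale.Agent.P064.Expect

/-! The one-node estimate: a spread family of labels can be shrunk by a random sprinkle. -/

open Finset

namespace Vale.Agent.P064

variable {X : Type*} [DecidableEq X] {ι : Type*} [Fintype ι]

/-- Index `i` is reducible for `W`. -/
def Red (ν : ι → ℝ) (a : ι → Finset X) (l : ℕ) (nice : ι → Finset X → Prop)
    (i : ι) (W : Finset X) : Prop :=
  ∃ j, ν j ≠ 0 ∧ a j ⊆ W ∪ a i ∧ (a j \ W).card ≤ l / 2 ∧ nice j W

lemma spread_sum (ν : ι → ℝ) (a : ι → Finset X) (hν : ∀ i, 0 ≤ ν i) (hsum : ∑ i, ν i = 1)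
    (σ : ℝ) (hsp : ∀ T : Finset X, T.Nonempty → ∑ i with T ⊆ a i, ν i ≤ σ ^ T.card)
    (A : Finset X) (g : Finset X → ℝ) (hg : ∀ T, 0 ≤ g T) :
    ∑ j, ν j * g (A ∩ a j) ≤ ∑ T ∈ A.powerset, g T * σ ^ T.card := by
  have h1 : ∀ j, ν j * g (A ∩ a j) ≤ ∑ T ∈ A.powerset, (if T ⊆ a j then g T * ν j else 0) := by
    intro j
    have hm : A ∩ a j ∈ A.powerset := mem_powerset.2 inter_subset_left
    have := single_le_sum (f := fun T => if T ⊆ a j then g T * ν j else 0)
      (fun T _ => by
        have := hg T; have := hν j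
        split_ifs <;> positivity) hm
    simp only [inter_subset_right, if_true] at this
    linarith
  refine (sum_le_sum fun j _ => h1 j).trans ?_
  rw [sum_comm]
  refine sum_le_sum fun T _ => ?_
  rw [← sum_filter, ← mul_sum]
  refine mul_le_mul_of_nonneg_left ?_ (hg T)
  rcases T.eq_empty_or_nonempty with rfl | hT
  · simp [hsum]
  · exact hsp T hT

open Classical in
lemma node_bound (s : Finset X) (ν : ι → ℝ) (a : ι → Finset X) (l : ℕ)
    (nice : ι → Finset X → Prop) (z σ ε η : ℝ)
    (hν : ∀ i, 0 ≤ ν i) (hsum : ∑ i, ν i = 1)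
    (hs : ∀ i, ν i ≠ 0 → a i ⊆ s) (hcard : ∀ i, ν i ≠ 0 → (a i).card ≤ l)
    (hz0 : 0 < z) (hz1 : z ≤ 1) (hσ0 : 0 ≤ σ) (hσ : σ ≤ z * (1 / 2) ^ 32) (hη : 0 < η)
    (hε0 : 0 ≤ ε)
    (hsp : ∀ T : Finset X, T.Nonempty → ∑ i with T ⊆ a i, ν i ≤ σ ^ T.card)
    (hnice : ∀ j W D, D ⊆ a j → (nice j (W ∪ D) ↔ nice j W))
    (hε : ∀ j, ν j ≠ 0 → Ex s z (fun W => if nice j W then 0 else 1) ≤ ε) :
    ∑ i, ν i * Ex s z (fun W => if Red ν a l nice i W then 0 else 1)
      ≤ η + η⁻¹ * (2 ^ l * ((1 / 2) ^ (16 * l) + ε)) := by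
  set L : Finset X → ℝ := fun Z => ∑ j, if a j ⊆ Z then ν j * (z⁻¹) ^ (a j).card else 0 with hL
  have hzi : 0 ≤ z⁻¹ := by positivity
  set c : Finset X → ℝ := fun T => if l / 2 < T.card then 1 else 0 with hc
  have hc0 : ∀ T, 0 ≤ c T := fun T => by simp only [hc]; split_ifs <;> norm_num
  -- pointwise bound
  have hpt : ∀ i W, (if Red ν a l nice i W then (0 : ℝ) else 1) ≤
      (if L (W ∪ a i) ≤ η then 1 else 0) + η⁻¹ * ∑ j, ν j * (z⁻¹) ^ (a j).card *
        (if a j \ a i ⊆ W then (c (a i ∩ a j) + if nice j W then 0 else 1) else 0) := by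
    intro i W
    have hnn : ∀ j, 0 ≤ ν j * (z⁻¹) ^ (a j).card *
        (if a j \ a i ⊆ W then (c (a i ∩ a j) + if nice j W then 0 else 1) else 0) := by
      intro j
      have := hν j
      have := hc0 (a i ∩ a j)
      split_ifs <;> positivity
    have hS : 0 ≤ η⁻¹ * ∑ j, ν j * (z⁻¹) ^ (a j).card *
        (if a j \ a i ⊆ W then (c (a i ∩ a j) + if nice j W then 0 else 1) else 0) :=
      mul_nonneg (by positivity) (sum_nonneg fun j _ => hnn j)
    by_cases hR : Red ν a l nice i W
    · rw [if_pos hR]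
      split_ifs <;> linarith
    rw [if_neg hR]
    by_cases hLe : L (W ∪ a i) ≤ η
    · rw [if_pos hLe]; linarith
    rw [if_neg hLe, zero_add]
    have hLe' : η < L (W ∪ a i) := not_le.1 hLe
    have h2 : L (W ∪ a i) ≤ ∑ j, ν j * (z⁻¹) ^ (a j).card *
        (if a j \ a i ⊆ W then (c (a i ∩ a j) + if nice j W then 0 else 1) else 0) := by
      refine sum_le_sum fun j _ => ?_
      by_cases hj : a j ⊆ W ∪ a i
      · rw [if_pos hj]
        by_cases hν0 : ν j = 0
        · simp [hν0]
        have hj' : a j \ a i ⊆ W := by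
          intro x hx
          rw [mem_sdiff] at hx
          rcases mem_union.1 (hj hx.1) with h | h
          · exact h
          · exact absurd h hx.2
        rw [if_pos hj']
        have h3 : 1 ≤ c (a i ∩ a j) + if nice j W then (0 : ℝ) else 1 := by
          by_cases hn : nice j W
          · rw [if_pos hn, add_zero]
            have h4 : ¬ (a j \ W).card ≤ l / 2 := fun h => hR ⟨j, hν0, hj, h, hn⟩
            have h5 : a j \ W ⊆ a i ∩ a j := by
              intro x hx
              rw [mem_sdiff] at hx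
              rcases mem_union.1 (hj hx.1) with h | h
              · exact absurd h hx.2
              · exact mem_inter.2 ⟨h, hx.1⟩
            have h6 := card_le_card h5
            simp only [hc]
            rw [if_pos (by omega)]
          · rw [if_neg hn]
            have := hc0 (a i ∩ a j)
            linarith
        have h7 : 0 ≤ ν j * (z⁻¹) ^ (a j).card := mul_nonneg (hν j) (by positivity)
        nlinarith
      · rw [if_neg hj]; exact hnn j
    rw [← div_eq_inv_mul, le_div_iff₀ hη]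
    linarith
  -- first part
  have hA : ∑ i, ν i * Ex s z (fun W => if L (W ∪ a i) ≤ η then 1 else 0) ≤ η := by
    have h1 : ∀ i, ν i * Ex s z (fun W => if L (W ∪ a i) ≤ η then 1 else 0)
        = Ex s z (fun W => (if a i ⊆ W then ν i * (z⁻¹) ^ (a i).card else 0) *
            (if L W ≤ η then 1 else 0)) := by
      intro i
      by_cases hν0 : ν i = 0
      · simp [hν0, Ex]
      have h2 := Ex_plant z (a i) (hs i hν0) (fun W => if L W ≤ η then (1 : ℝ) else 0)
      have h3 : Ex s z (fun W => (if a i ⊆ W then ν i * (z⁻¹) ^ (a i).card else 0) *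
            (if L W ≤ η then 1 else 0)) = ν i * (z⁻¹) ^ (a i).card *
            Ex s z (fun W => if a i ⊆ W then (if L W ≤ η then (1 : ℝ) else 0) else 0) := by
        rw [← Ex_const_mul]
        refine Ex_congr fun W _ => ?_
        split_ifs <;> simp
      rw [h3, h2, mul_assoc, ← mul_assoc (z⁻¹ ^ _), ← mul_pow, inv_mul_cancel₀ hz0.ne', one_pow,
        one_mul]
    rw [sum_congr rfl fun i _ => h1 i, ← Ex_sum]
    refine (Ex_mono hz0.le hz1 (G := fun _ => η) fun W _ => ?_).trans (Ex_const s z η).le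
    rw [← sum_mul]
    change L W * _ ≤ η
    split_ifs with h
    · linarith
    · linarith
  -- second part
  have hB : ∀ i, ν i ≠ 0 → Ex s z (fun W => ∑ j, ν j * (z⁻¹) ^ (a j).card *
        (if a j \ a i ⊆ W then (c (a i ∩ a j) + if nice j W then 0 else 1) else 0))
        ≤ 2 ^ l * ((1 / 2) ^ (16 * l) + ε) := by
    intro i hi
    rw [Ex_sum]
    have h1 : ∀ j, Ex s z (fun W => ν j * (z⁻¹) ^ (a j).card *
        (if a j \ a i ⊆ W then (c (a i ∩ a j) + if nice j W then 0 else 1) else 0))
        ≤ ν j * ((z⁻¹) ^ (a i ∩ a j).card * (c (a i ∩ a j) + ε)) := by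
      intro j
      by_cases hν0 : ν j = 0
      · simp [hν0, Ex]
      rw [Ex_const_mul, Ex_plant z (a j \ a i) (sdiff_subset.trans (hs j hν0))]
      have h2 : Ex s z (fun W => c (a i ∩ a j) + if nice j (W ∪ (a j \ a i)) then 0 else 1)
          ≤ c (a i ∩ a j) + ε := by
        rw [Ex_add, Ex_const]
        have h3 : Ex s z (fun W => if nice j (W ∪ (a j \ a i)) then (0 : ℝ) else 1)
            = Ex s z (fun W => if nice j W then 0 else 1) := by
          refine Ex_congr fun W _ => ?_
          simp only [hnice j W _ sdiff_subset]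
        rw [h3]
        linarith [hε j hν0]
      have h4 : (a j).card = (a j \ a i).card + (a i ∩ a j).card := by
        rw [inter_comm, card_sdiff_add_card_inter]
      have h5 : (z⁻¹) ^ (a j).card * z ^ (a j \ a i).card = (z⁻¹) ^ (a i ∩ a j).card := by
        rw [h4, pow_add, mul_right_comm, ← mul_pow, inv_mul_cancel₀ hz0.ne', one_pow, one_mul]
      rw [mul_assoc, ← mul_assoc (z⁻¹ ^ _), h5]
      exact mul_le_mul_of_nonneg_left (mul_le_mul_of_nonneg_left h2 (by positivity)) (hν j)
    refine (sum_le_sum fun j _ => h1 j).trans ?_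
    refine (spread_sum ν a hν hsum σ hsp (a i) (fun T => (z⁻¹) ^ T.card * (c T + ε))
      (fun T => mul_nonneg (by positivity) (add_nonneg (hc0 T) hε0))).trans ?_
    have h6 : ∀ T : Finset X, (z⁻¹) ^ T.card * (c T + ε) * σ ^ T.card
        ≤ (1 / 2) ^ (16 * l) + ε := by
      intro T
      have h7 : z⁻¹ * σ ≤ (1 / 2) ^ 32 := by
        rw [← div_eq_inv_mul, div_le_iff₀ hz0]; linarith
      have h8 : (z⁻¹ * σ) ^ T.card ≤ ((1 / 2 : ℝ) ^ 32) ^ T.card :=
        pow_le_pow_left₀ (by positivity) h7 _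
      have h9 : ((1 / 2 : ℝ) ^ 32) ^ T.card ≤ 1 := pow_le_one₀ (by positivity) (by norm_num)
      have h10 : 0 ≤ (z⁻¹ * σ) ^ T.card := by positivity
      rw [mul_right_comm, ← mul_pow, mul_add]
      refine add_le_add ?_ (by nlinarith)
      simp only [hc]
      split_ifs with h
      · rw [mul_one]
        refine h8.trans ?_
        rw [← pow_mul]
        exact pow_le_pow_of_le_one (by norm_num) (by norm_num) (by omega)
      · rw [mul_zero]; positivity
    refine (sum_le_sum fun T _ => h6 T).trans ?_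
    rw [sum_const, card_powerset, nsmul_eq_mul]
    push_cast
    refine mul_le_mul_of_nonneg_right ?_ (by positivity)
    exact pow_le_pow_right₀ (by norm_num) (hcard i hi)
  -- combine
  have hC : ∀ i, ν i * Ex s z (fun W => if Red ν a l nice i W then 0 else 1)
      ≤ ν i * Ex s z (fun W => if L (W ∪ a i) ≤ η then 1 else 0)
        + ν i * (η⁻¹ * (2 ^ l * ((1 / 2) ^ (16 * l) + ε))) := by
    intro i
    by_cases hν0 : ν i = 0
    · simp [hν0]
    rw [← mul_add]
    refine mul_le_mul_of_nonneg_left ?_ (hν i)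
    refine (Ex_mono hz0.le hz1 fun W _ => hpt i W).trans ?_
    rw [Ex_add, Ex_const_mul]
    have := mul_le_mul_of_nonneg_left (hB i hν0) (by positivity : (0 : ℝ) ≤ η⁻¹)
    linarith
  refine (sum_le_sum fun i _ => hC i).trans ?_
  rw [sum_add_distrib, ← sum_mul, hsum, one_mul]
  linarith

end Vale.Agent.P064
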