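import Vale.Agent.P064.Node

/-! Trees of conditionally spread labels, and the simultaneous halving of all their levels. -/

open Finset

namespace Vale.Agent.P064

variable {X : Type*} [DecidableEq X]

/-- The spread parameter allowed at a level of capacity `l`. -/
noncomputable def sp (p : ℝ) (l : ℕ) : ℝ := p * (1 + 1 / (l : ℝ))

/-- `Good d m S`: a depth `d` tree of conditionally spread labels completes `S` to a set with `P`.
The level at distance `j` from the leaves has labels of size at most `m / 16 ^ j`. -/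
def Good (ι : Type*) [Fintype ι] (s : Finset X) (P : Finset X → Prop) (p : ℝ) :
    ℕ → ℕ → Finset X → Prop
  | 0, _, S => P S
  | d + 1, m, S => ∃ (ν : ι → ℝ) (lab : ι → Finset X), (∀ i, 0 ≤ ν i) ∧ (∑ i, ν i = 1) ∧
      (∀ i, ν i ≠ 0 → lab i ⊆ s ∧ (lab i).card ≤ m / 16 ^ d ∧ Good ι s P p d m (S ∪ lab i)) ∧
      (∀ T : Finset X, T.Nonempty → ∑ i with T ⊆ lab i, ν i ≤ (sp p (m / 16 ^ d)) ^ T.card)

variable {ι : Type*} [Fintype ι] {s : Finset X} {P : Finset X → Prop} {p : ℝ}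

lemma exists_ne_zero_of_sum {ν : ι → ℝ} (h : ∑ i, ν i = 1) : ∃ i, ν i ≠ 0 := by
  by_contra hne
  push Not at hne
  simp [hne] at h

lemma Good.mono (hP : ∀ S S', S ⊆ S' → P S → P S') :
    ∀ (d m : ℕ) (S S' : Finset X), S ⊆ S' → Good ι s P p d m S → Good ι s P p d m S'
  | 0, _, S, S', h, hG => hP S S' h hG
  | d + 1, m, _, _, h, ⟨ν, lab, h0, h1, h2, h3⟩ =>
    ⟨ν, lab, h0, h1, fun i hi => ⟨(h2 i hi).1, (h2 i hi).2.1,
      Good.mono hP d m _ _ (union_subset_union_left h) (h2 i hi).2.2⟩, h3⟩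

lemma Good.of_cap_zero {d m : ℕ} {S : Finset X} (hm : m / 16 ^ d = 0)
    (h : Good ι s P p (d + 1) m S) : Good ι s P p d m S := by
  obtain ⟨ν, lab, -, h1, h2, -⟩ := h
  obtain ⟨i, hi⟩ := exists_ne_zero_of_sum h1
  obtain ⟨-, h3, h4⟩ := h2 i hi
  rw [hm, Nat.le_zero, card_eq_zero] at h3
  simpa [h3] using h4

lemma Good.zero : ∀ (d : ℕ) (S : Finset X), Good ι s P p d 0 S → P S
  | 0, _, h => h
  | d + 1, S, h => Good.zero d S (Good.of_cap_zero (by simp) h)

lemma Good.succ [Nonempty ι] (hp : 0 ≤ p) {d m : ℕ} {S : Finset X}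
    (h : Good ι s P p d m S) : Good ι s P p (d + 1) m S := by
  have hc : (0 : ℝ) < Fintype.card ι := by exact_mod_cast Fintype.card_pos
  refine ⟨fun _ => (Fintype.card ι : ℝ)⁻¹, fun _ => ∅, fun _ => by positivity, ?_, ?_, ?_⟩
  · simp
  · intro i _
    simpa using h
  · intro T hT
    have : ¬ T ⊆ ∅ := by simpa [subset_empty] using hT.ne_empty
    simp only [this, filter_false, sum_empty]
    unfold sp
    positivity

/-- The failure bound. -/
noncomputable def eps : ℕ → ℕ → ℝ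
  | 0, _ => 0
  | d + 1, m => (1 / 2) ^ (m / 16 ^ d) / 4

lemma eps_nonneg : ∀ d m, 0 ≤ eps d m
  | 0, _ => le_rfl
  | _ + 1, _ => by unfold eps; positivity

lemma eps_le_quarter : ∀ d m, eps d m ≤ 1 / 4
  | 0, _ => by unfold eps; norm_num
  | d + 1, m => by
    unfold eps
    have : (1 / 2 : ℝ) ^ (m / 16 ^ d) ≤ 1 := pow_le_one₀ (by norm_num) (by norm_num)
    linarith

lemma eps_le : ∀ d m, eps d m ≤ (1 / 2) ^ (16 * (m / 16 ^ d))
  | 0, _ => by unfold eps; positivity
  | d + 1, m => by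
    unfold eps
    have h1 : 16 * (m / 16 ^ (d + 1)) ≤ m / 16 ^ d := by
      rw [pow_succ, ← Nat.div_div_eq_div_mul]
      exact Nat.mul_div_le _ _
    have h2 : (1 / 2 : ℝ) ^ (m / 16 ^ d) ≤ (1 / 2) ^ (16 * (m / 16 ^ (d + 1))) :=
      pow_le_pow_of_le_one (by norm_num) (by norm_num) h1
    have h3 : 0 ≤ (1 / 2 : ℝ) ^ (m / 16 ^ d) := by positivity
    linarith

lemma numeric_bound (l : ℕ) (hl : 1 ≤ l) (ε : ℝ) (hε : ε ≤ (1 / 2) ^ (16 * l)) :
    ((l : ℝ) + 2) * ((1 / 2) ^ (7 * l) + ((1 / 2 : ℝ) ^ (7 * l))⁻¹ *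
      (2 ^ l * ((1 / 2) ^ (16 * l) + ε))) ≤ (1 / 2) ^ l / 4 := by
  set u : ℝ := (1 / 2) ^ l with hu
  have hu0 : 0 < u := by positivity
  have hu1 : u ≤ 1 / 2 := by
    have := pow_le_pow_of_le_one (a := (1 / 2 : ℝ)) (by norm_num) (by norm_num) hl
    rwa [pow_one] at this
  have e7 : (1 / 2 : ℝ) ^ (7 * l) = u ^ 7 := by rw [hu, ← pow_mul, mul_comm]
  have e16 : (1 / 2 : ℝ) ^ (16 * l) = u ^ 16 := by rw [hu, ← pow_mul, mul_comm]
  have e1 : (2 : ℝ) ^ l = u⁻¹ := by rw [hu, ← inv_pow]; norm_num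
  have hl2 : (l : ℝ) + 2 ≤ (u⁻¹) ^ 2 := by
    rw [← e1, ← pow_mul]
    have : l + 2 ≤ 2 ^ (l * 2) := by
      have h1 : l < 2 ^ l := Nat.lt_two_pow_self
      have h2 : 2 ≤ 2 ^ l := by
        calc 2 = 2 ^ 1 := by norm_num
          _ ≤ 2 ^ l := Nat.pow_le_pow_right (by norm_num) hl
      rw [pow_mul]
      nlinarith
    exact_mod_cast this
  rw [e16] at hε
  rw [e7, e16, e1]
  have h1 : (u ^ 7)⁻¹ * (u⁻¹ * (u ^ 16 + ε)) ≤ 2 * u ^ 8 := by
    have : (u ^ 7)⁻¹ * (u⁻¹ * (u ^ 16 + u ^ 16)) = 2 * u ^ 8 := by field_simp; ring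
    rw [← this]
    gcongr
  have h2 : 2 * u ^ 8 ≤ u ^ 7 := by
    have : 0 < u ^ 7 := by positivity
    nlinarith [pow_succ u 7]
  have h3 : ((l : ℝ) + 2) * (u ^ 7 + (u ^ 7)⁻¹ * (u⁻¹ * (u ^ 16 + ε)))
      ≤ ((l : ℝ) + 2) * (2 * u ^ 7) :=
    mul_le_mul_of_nonneg_left (by linarith) (by positivity)
  have h4 : ((l : ℝ) + 2) * (2 * u ^ 7) ≤ (u⁻¹) ^ 2 * (2 * u ^ 7) :=
    mul_le_mul_of_nonneg_right hl2 (by positivity)
  have h5 : (u⁻¹) ^ 2 * (2 * u ^ 7) = u * (2 * u ^ 4) := by field_simp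
  have h6 : u ^ 4 ≤ (1 / 2) ^ 4 := pow_le_pow_left₀ hu0.le hu1 4
  nlinarith

open Classical in
lemma good_of_small_bad (hp : 0 ≤ p) {d m : ℕ} {S W : Finset X} (ν : ι → ℝ) (lab : ι → Finset X)
    (hl : 1 ≤ m / 16 ^ d) (h0 : ∀ i, 0 ≤ ν i) (h1 : ∑ i, ν i = 1)
    (h2 : ∀ i, ν i ≠ 0 → lab i ⊆ s)
    (h3 : ∀ T : Finset X, T.Nonempty → ∑ i with T ⊆ lab i, ν i ≤ (sp p (m / 16 ^ d)) ^ T.card)
    (hB : (((m / 16 ^ d : ℕ) : ℝ) + 2) * ∑ i, ν i * (if Red ν lab (m / 16 ^ d)
      (fun j W => Good ι s P p d (m / 2) (S ∪ lab j ∪ W)) i W then 0 else 1) ≤ 1) :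
    Good ι s P p (d + 1) (m / 2) (S ∪ W) := by
  set l := m / 16 ^ d with hldef
  have hl' : m / 2 / 16 ^ d = l / 2 := by
    rw [hldef, Nat.div_div_eq_div_mul, Nat.div_div_eq_div_mul, mul_comm]
  set R : ι → Prop := fun i => Red ν lab l
    (fun j W => Good ι s P p d (m / 2) (S ∪ lab j ∪ W)) i W with hR
  set Z : ℝ := ∑ i, if R i then ν i else 0 with hZ
  have hlR : (1 : ℝ) ≤ l := by exact_mod_cast hl
  have hZ1 : Z = 1 - ∑ i, ν i * (if R i then 0 else 1) := by
    suffices hh : Z = ∑ i, ν i - ∑ i, ν i * (if R i then 0 else 1) by rw [hh, h1]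
    rw [← sum_sub_distrib]
    refine sum_congr rfl fun i _ => ?_
    by_cases hRi : R i
    · rw [if_pos hRi, if_pos hRi]; ring
    · rw [if_neg hRi, if_neg hRi]; ring
  have hZ2 : (l : ℝ) + 1 ≤ ((l : ℝ) + 2) * Z := by
    rw [hZ1, mul_sub]
    linarith
  have hZ0 : 0 < Z := by
    by_contra hneg
    push Not at hneg
    nlinarith
  have hZle : Z ≤ 1 := by
    rw [← h1]
    refine sum_le_sum fun i _ => ?_
    split_ifs
    · exact le_rfl
    · exact h0 i
  have hch : ∀ i, R i → ∃ j, ν j ≠ 0 ∧ lab j ⊆ W ∪ lab i ∧ (lab j \ W).card ≤ l / 2 ∧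
      Good ι s P p d (m / 2) (S ∪ lab j ∪ W) := fun i hi => hi
  choose! J hJ using hch
  refine ⟨fun i => if R i then ν i / Z else 0, fun i => if R i then lab (J i) \ W else ∅,
    fun i => ?_, ?_, ?_, ?_⟩
  · have := h0 i
    dsimp only
    split_ifs <;> positivity
  · have : ∑ i, (if R i then ν i / Z else 0) = Z / Z := by
      conv_rhs => rw [hZ, sum_div]
      refine sum_congr rfl fun i _ => ?_
      split_ifs <;> simp [hZ]
    rw [this, div_self hZ0.ne']
  · intro i hi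
    have hRi : R i := by
      by_contra h
      simp [h] at hi
    obtain ⟨a1, -, a3, a4⟩ := hJ i hRi
    simp only [hRi, if_true]
    refine ⟨sdiff_subset.trans (h2 _ a1), by rw [hl']; exact a3, ?_⟩
    have : S ∪ W ∪ lab (J i) \ W = S ∪ lab (J i) ∪ W := by
      rw [union_assoc, union_sdiff_self_eq_union, union_assoc, union_comm W]
    rw [this]
    exact a4
  · intro T hT
    rw [hl']
    rcases Nat.eq_zero_or_pos (l / 2) with hz | hpos
    · have : ∑ i with T ⊆ (if R i then lab (J i) \ W else ∅), (if R i then ν i / Z else 0) = 0 := by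
        refine sum_eq_zero fun i hi => ?_
        rw [mem_filter] at hi
        by_cases hRi : R i
        · exfalso
          obtain ⟨-, -, a3, -⟩ := hJ i hRi
          rw [hz, Nat.le_zero, card_eq_zero] at a3
          have h4 := hi.2
          rw [if_pos hRi, a3, subset_empty] at h4
          exact hT.ne_empty h4
        · simp [hRi]
      rw [this]
      unfold sp
      positivity
    have h4 : ∑ i with T ⊆ (if R i then lab (J i) \ W else ∅), (if R i then ν i / Z else 0)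
        ≤ (∑ i with T ⊆ lab i, ν i) / Z := by
      rw [sum_div, sum_filter, sum_filter]
      refine sum_le_sum fun i _ => ?_
      have := h0 i
      by_cases hRi : R i
      · simp only [hRi, if_true]
        by_cases h5 : T ⊆ lab (J i) \ W
        · have h6 : T ⊆ lab i := by
            intro x hx
            have hx' := mem_sdiff.1 (h5 hx)
            rcases mem_union.1 ((hJ i hRi).2.1 hx'.1) with h | h
            · exact absurd h hx'.2
            · exact h
          rw [if_pos h5, if_pos h6]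
        · rw [if_neg h5]
          split_ifs <;> positivity
      · simp only [hRi, if_false, ite_self]
        split_ifs <;> positivity
    refine h4.trans ?_
    have hk : 1 ≤ T.card := hT.card_pos
    have hsp0 : 0 ≤ sp p l := by unfold sp; positivity
    have h5 : sp p l / Z ≤ sp p (l / 2) := by
      unfold sp
      rw [mul_div_assoc]
      refine mul_le_mul_of_nonneg_left ?_ hp
      have hh : (0 : ℝ) < ((l / 2 : ℕ) : ℝ) := by exact_mod_cast hpos
      have hh2 : 2 * ((l / 2 : ℕ) : ℝ) ≤ l := by exact_mod_cast Nat.mul_div_le l 2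
      have h6 : 2 / (l : ℝ) ≤ 1 / ((l / 2 : ℕ) : ℝ) := by
        rw [div_le_div_iff₀ (by linarith) hh]; linarith
      have h7 : (1 + 1 / (l : ℝ)) / Z ≤ 1 + 2 / (l : ℝ) := by
        rw [div_le_iff₀ hZ0]
        have e1 : 1 + 1 / (l : ℝ) = ((l : ℝ) + 1) / l := by field_simp
        have e2 : (1 + 2 / (l : ℝ)) * Z = (((l : ℝ) + 2) * Z) / l := by field_simp
        rw [e1, e2]
        exact div_le_div_of_nonneg_right hZ2 (by linarith)
      linarith
    calc (∑ i with T ⊆ lab i, ν i) / Z ≤ sp p l ^ T.card / Z :=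
          div_le_div_of_nonneg_right (h3 T hT) hZ0.le
      _ ≤ sp p l ^ T.card / Z ^ T.card := by
          refine div_le_div_of_nonneg_left (by positivity) (by positivity) ?_
          exact pow_le_of_le_one hZ0.le hZle (by omega)
      _ = (sp p l / Z) ^ T.card := (div_pow _ _ _).symm
      _ ≤ _ := pow_le_pow_left₀ (by positivity) h5 _

open Classical in
lemma reduction [Nonempty ι] (hP : ∀ S S', S ⊆ S' → P S → P S') (hp : 0 ≤ p) {z : ℝ}
    (hz0 : 0 < z) (hz1 : z ≤ 1) (hpz : 2 * p ≤ z * (1 / 2) ^ 32) :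
    ∀ (d m : ℕ) (S : Finset X), Good ι s P p d m S →
      Ex s z (fun W => if Good ι s P p d (m / 2) (S ∪ W) then 0 else 1) ≤ eps d m := by
  intro d
  induction d with
  | zero =>
    intro m S h
    refine le_of_eq ((Ex_congr (G := fun _ => 0) fun W _ => ?_).trans (Ex_const _ _ _))
    exact if_pos (hP _ _ subset_union_left h)
  | succ d ih =>
    intro m S h
    rcases Nat.eq_zero_or_pos (m / 16 ^ d) with hl | hl
    · have h1 := ih m S (Good.of_cap_zero hl h)
      have h2 : eps (d + 1) m = 1 / 4 := by simp [eps, hl]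
      rw [h2]
      refine le_trans (Ex_mono hz0.le hz1 fun W _ => ?_) (h1.trans (eps_le_quarter d m))
      by_cases h3 : Good ι s P p d (m / 2) (S ∪ W)
      · rw [if_pos h3, if_pos (Good.succ hp h3)]
      · rw [if_neg h3]; split_ifs <;> norm_num
    obtain ⟨ν, lab, h0, h1, h2, h3⟩ := h
    set l := m / 16 ^ d with hldef
    have hlR : (1 : ℝ) ≤ l := by exact_mod_cast hl
    have hσ : sp p l ≤ z * (1 / 2) ^ 32 := by
      unfold sp
      have : 1 / (l : ℝ) ≤ 1 := by rw [div_le_one (by linarith)]; exact hlR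
      nlinarith
    have hN := node_bound s ν lab l (fun j W => Good ι s P p d (m / 2) (S ∪ lab j ∪ W)) z
      (sp p l) (eps d m) ((1 / 2) ^ (7 * l)) h0 h1 (fun i hi => (h2 i hi).1)
      (fun i hi => (h2 i hi).2.1) hz0 hz1 (by unfold sp; positivity) hσ (by positivity)
      (eps_nonneg d m) h3
      (fun j W D hD => by
        have : S ∪ lab j ∪ (W ∪ D) = S ∪ lab j ∪ W := by
          ext x
          have := @hD x
          simp only [mem_union]
          tauto
        simp only [this])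
      (fun j hj => ih m _ (h2 j hj).2.2)
    have hnum := numeric_bound l hl (eps d m) (eps_le d m)
    have hM : Ex s z (fun W => if Good ι s P p (d + 1) (m / 2) (S ∪ W) then 0 else 1)
        ≤ Ex s z (fun W => ((l : ℝ) + 2) * ∑ i, ν i * (if Red ν lab l
          (fun j W => Good ι s P p d (m / 2) (S ∪ lab j ∪ W)) i W then 0 else 1)) := by
      refine Ex_mono hz0.le hz1 fun W _ => ?_
      by_cases h4 : Good ι s P p (d + 1) (m / 2) (S ∪ W)
      · rw [if_pos h4]
        refine mul_nonneg (by positivity) (sum_nonneg fun i _ => mul_nonneg (h0 i) ?_)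
        split_ifs <;> norm_num
      · rw [if_neg h4]
        by_contra h5
        exact h4 (good_of_small_bad hp ν lab hl h0 h1 (fun i hi => (h2 i hi).1) h3
          (not_le.1 h5).le)
    refine hM.trans ?_
    rw [Ex_const_mul, Ex_sum]
    simp only [Ex_const_mul]
    refine le_trans (mul_le_mul_of_nonneg_left hN (by positivity)) ?_
    exact hnum

/-- Density of the union of `r` independent sprinkles of density `z`. -/
noncomputable def pr (z : ℝ) : ℕ → ℝ
  | 0 => 0
  | r + 1 => z + pr z r - z * pr z r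

lemma pr_bounds {z : ℝ} (hz0 : 0 ≤ z) (hz1 : z ≤ 1) :
    ∀ r, 0 ≤ pr z r ∧ pr z r ≤ 1 ∧ pr z r ≤ r * z
  | 0 => by simp [pr]
  | r + 1 => by
    obtain ⟨a, b, c⟩ := pr_bounds hz0 hz1 r
    unfold pr
    push_cast
    refine ⟨by nlinarith, by nlinarith, by nlinarith⟩

open Classical in
lemma iterate [Nonempty ι] (hP : ∀ S S', S ⊆ S' → P S → P S') (hp : 0 ≤ p) {z : ℝ}
    (hz0 : 0 < z) (hz1 : z ≤ 1) (hpz : 2 * p ≤ z * (1 / 2) ^ 32) (d : ℕ) :
    ∀ (r k m : ℕ) (S : Finset X), m < 2 ^ k → Good ι s P p d m S →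
      Ex s (pr z r) (fun W => if P (S ∪ W) then 0 else 1) ≤ 4 ^ k / 2 ^ r := by
  intro r
  induction r with
  | zero =>
    intro k m S _ _
    have : (1 : ℝ) ≤ 4 ^ k := one_le_pow₀ (by norm_num)
    simp only [pr, Ex_zero, pow_zero, div_one]
    split_ifs <;> linarith
  | succ r ih =>
    intro k m S hm hG
    obtain ⟨b0, b1, -⟩ := pr_bounds hz0.le hz1 (r + 1)
    rcases k with _ | k
    · have hm0 : m = 0 := by simpa using hm
      subst hm0
      have hPS := Good.zero d S hG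
      refine le_trans (le_of_eq ((Ex_congr (G := fun _ => 0) fun W _ => ?_).trans
        (Ex_const _ _ _))) (by positivity)
      exact if_pos (hP _ _ subset_union_left hPS)
    have hm2 : m / 2 < 2 ^ k := by
      rw [Nat.div_lt_iff_lt_mul (by norm_num)]
      rwa [pow_succ] at hm
    unfold pr
    rw [← Ex_union s z (pr z r) (fun W => if P (S ∪ W) then (0 : ℝ) else 1)]
    have h1 : ∀ W, Ex s (pr z r) (fun W' => if P (S ∪ (W ∪ W')) then (0 : ℝ) else 1)
        ≤ 4 ^ k / 2 ^ r + 4 ^ (k + 1) / 2 ^ r *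
          (if Good ι s P p d (m / 2) (S ∪ W) then 0 else 1) := by
      intro W
      simp only [← union_assoc]
      by_cases h2 : Good ι s P p d (m / 2) (S ∪ W)
      · rw [if_pos h2, mul_zero, add_zero]
        exact ih k (m / 2) _ hm2 h2
      · rw [if_neg h2, mul_one]
        have := ih (k + 1) m _ hm (Good.mono hP d m _ _ (subset_union_left (s₂ := W)) hG)
        have h3 : (0 : ℝ) ≤ 4 ^ k / 2 ^ r := by positivity
        linarith
    refine (Ex_mono hz0.le hz1 fun W _ => h1 W).trans ?_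
    rw [Ex_add, Ex_const, Ex_const_mul]
    have h4 := (reduction (ι := ι) (s := s) hP hp hz0 hz1 hpz d m S hG).trans (eps_le_quarter d m)
    have h5 := mul_le_mul_of_nonneg_left h4 (by positivity : (0 : ℝ) ≤ 4 ^ (k + 1) / 2 ^ r)
    have h6 : (4 : ℝ) ^ k / 2 ^ r + 4 ^ (k + 1) / 2 ^ r * (1 / 4) = 4 ^ (k + 1) / 2 ^ (r + 1) := by
      field_simp
      ring
    linarith

end Vale.Agent.P064
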